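import Mathlib

/-!
# P102: almost orthogonal vectors
-/

namespace Vale.Agent.P102

open scoped InnerProductSpace

theorem bessel {H : Type*} [NormedAddCommGroup H] [InnerProductSpace ℝ H] {ι : Type*}
    (b : H) (hb : ‖b‖ ≤ 1) (S : Finset ι) (v : ι → H) (hv : ∀ i ∈ S, ‖v i‖ ≤ 1) (δ ε : ℝ)
    (hδ : 0 ≤ δ) (hε : 0 ≤ ε) (hvv : ∀ i ∈ S, ∀ j ∈ S, i ≠ j → |⟪v i, v j⟫_ℝ| ≤ δ)
    (hbv : ∀ i ∈ S, ε ≤ |⟪b, v i⟫_ℝ|) : (S.card : ℝ) * ε ^ 2 ≤ 1 + S.card * δ := by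
  classical
  rcases Nat.eq_zero_or_pos S.card with h0 | h0
  · rw [h0]; norm_num
  have hS : (0 : ℝ) < S.card := by exact_mod_cast h0
  let σ : ι → ℝ := fun i => if 0 ≤ ⟪b, v i⟫_ℝ then 1 else -1
  have hσ : ∀ i, σ i * ⟪b, v i⟫_ℝ = |⟪b, v i⟫_ℝ| := by
    intro i
    simp only [σ]
    split_ifs with h
    · rw [one_mul, abs_of_nonneg h]
    · rw [abs_of_neg (not_le.mp h)]; ring
  have hσ1 : ∀ i, |σ i| = 1 := by
    intro i
    simp only [σ]
    split_ifs <;> norm_num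
  let G : H := ∑ i ∈ S, σ i • v i
  have h1 : (S.card : ℝ) * ε ≤ ⟪b, G⟫_ℝ := by
    have : ⟪b, G⟫_ℝ = ∑ i ∈ S, |⟪b, v i⟫_ℝ| := by
      simp only [G]
      rw [inner_sum]
      refine Finset.sum_congr rfl fun i _ => ?_
      rw [inner_smul_right, hσ]
    rw [this, ← nsmul_eq_mul]
    exact Finset.card_nsmul_le_sum S _ _ hbv
  have h2 : ⟪b, G⟫_ℝ ≤ ‖G‖ := by
    calc ⟪b, G⟫_ℝ ≤ ‖b‖ * ‖G‖ := real_inner_le_norm b G
      _ ≤ 1 * ‖G‖ := mul_le_mul_of_nonneg_right hb (norm_nonneg _)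
      _ = ‖G‖ := one_mul _
  have h3 : ‖G‖ ^ 2 ≤ S.card + (S.card : ℝ) ^ 2 * δ := by
    rw [← real_inner_self_eq_norm_sq]
    have h4 : ⟪G, G⟫_ℝ = ∑ i ∈ S, ∑ j ∈ S, σ i * σ j * ⟪v i, v j⟫_ℝ := by
      simp only [G]
      rw [sum_inner]
      refine Finset.sum_congr rfl fun i _ => ?_
      rw [inner_sum]
      refine Finset.sum_congr rfl fun j _ => ?_
      rw [inner_smul_left, inner_smul_right]
      simp only [conj_trivial]
      ring
    rw [h4]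
    have h5 : ∀ i ∈ S, ∑ j ∈ S, σ i * σ j * ⟪v i, v j⟫_ℝ ≤ 1 + S.card * δ := by
      intro i hi
      rw [← Finset.add_sum_erase _ _ hi]
      have h6 : σ i * σ i * ⟪v i, v i⟫_ℝ ≤ 1 := by
        have : σ i * σ i = 1 := by
          have := hσ1 i
          rw [← abs_mul_abs_self, this]; norm_num
        rw [this, one_mul, real_inner_self_eq_norm_sq]
        have := hv i hi
        have := norm_nonneg (v i)
        nlinarith
      have h7 : ∑ j ∈ S.erase i, σ i * σ j * ⟪v i, v j⟫_ℝ ≤ ∑ _j ∈ S.erase i, δ := by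
        refine Finset.sum_le_sum fun j hj => ?_
        have h8 := hvv i hi j (Finset.mem_of_mem_erase hj) (Finset.ne_of_mem_erase hj).symm
        calc σ i * σ j * ⟪v i, v j⟫_ℝ ≤ |σ i * σ j * ⟪v i, v j⟫_ℝ| := le_abs_self _
          _ = |⟪v i, v j⟫_ℝ| := by rw [abs_mul, abs_mul, hσ1, hσ1]; ring
          _ ≤ δ := h8
      rw [Finset.sum_const, nsmul_eq_mul] at h7
      have h9 : ((S.erase i).card : ℝ) * δ ≤ S.card * δ := by
        apply mul_le_mul_of_nonneg_right _ hδ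
        exact_mod_cast Finset.card_erase_le
      linarith
    calc _ ≤ ∑ _i ∈ S, (1 + S.card * δ) := Finset.sum_le_sum h5
      _ = S.card + (S.card : ℝ) ^ 2 * δ := by
          rw [Finset.sum_const, nsmul_eq_mul]; ring
  have h4 : ((S.card : ℝ) * ε) ^ 2 ≤ ‖G‖ ^ 2 := by
    apply pow_le_pow_left₀ (by positivity) (h1.trans h2)
  have h5 : (S.card : ℝ) * ((S.card : ℝ) * ε ^ 2) ≤ S.card * (1 + S.card * δ) := by
    nlinarith
  exact le_of_mul_le_mul_left h5 hS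

end Vale.Agent.P102
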