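import Mathlib

/-!
# P102: definitions
-/

namespace Vale.Agent.P102

open MeasureTheory Filter Topology

/-- an invertible measure-preserving transformation of a probability space (with measurable
inverse) -/
structure IsAutomorphism {Ω : Type} [MeasurableSpace Ω] (μ : Measure Ω) (T : Equiv.Perm Ω) :
    Prop where
  preserving : MeasurePreserving T μ μ
  measurable_inv : Measurable (T⁻¹ : Equiv.Perm Ω)

/-- mixing: `μ (A ∩ T^{-n} B) → μ A * μ B` as `|n| → ∞` -/
def IsMixing {Ω : Type} [MeasurableSpace Ω] (μ : Measure Ω) (T : Equiv.Perm Ω) : Prop :=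
  ∀ A B : Set Ω, MeasurableSet A → MeasurableSet B →
    Tendsto (fun n : ℤ => μ.real (A ∩ (T ^ n : Equiv.Perm Ω) ⁻¹' B)) cofinite
      (𝓝 (μ.real A * μ.real B))

/-- `μ (T^{-t₁} A₁ ∩ ⋯ ∩ T^{-t_k} A_k)` -/
noncomputable def joint {Ω : Type} [MeasurableSpace Ω] (μ : Measure Ω) (T : Equiv.Perm Ω)
    {k : ℕ} (A : Fin k → Set Ω) (t : Fin k → ℤ) : ℝ :=
  μ.real (⋂ i, (T ^ t i : Equiv.Perm Ω) ⁻¹' A i)

/-- the time vectors in `[-N, N]^k` for which the joint measure differs from the product of the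
measures by more than `ε` -/
noncomputable def bad {Ω : Type} [MeasurableSpace Ω] (μ : Measure Ω) (T : Equiv.Perm Ω)
    {k : ℕ} (A : Fin k → Set Ω) (ε : ℝ) (N : ℕ) : Finset (Fin k → ℤ) :=
  open Classical in
  (Fintype.piFinset fun _ : Fin k => Finset.Icc (-(N : ℤ)) N).filter fun t =>
    ε < |joint μ T A t - ∏ i, μ.real (A i)|

end Vale.Agent.P102
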