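import Mathlib
import Vale.Agent.P102.Defs
import Vale.Agent.P102.Bessel

/-!
# P102: uniform mixing
-/

namespace Vale.Agent.P102

open MeasureTheory Filter Topology
open scoped InnerProductSpace ENNReal

variable {Ω : Type} [MeasurableSpace Ω] {μ : Measure Ω} {T : Equiv.Perm Ω}

theorem preserving_zpow (hT : IsAutomorphism μ T) (n : ℤ) :
    MeasurePreserving (T ^ n : Equiv.Perm Ω) μ μ := by
  have hinv : MeasurePreserving (T⁻¹ : Equiv.Perm Ω) μ μ := by
    refine ⟨hT.measurable_inv, ?_⟩
    conv_lhs => rw [← hT.preserving.map_eq]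
    rw [Measure.map_map hT.measurable_inv hT.preserving.measurable]
    have : ((T⁻¹ : Equiv.Perm Ω) : Ω → Ω) ∘ T = id := by
      funext x; simp
    rw [this, Measure.map_id]
  have hpow : ∀ (S : Equiv.Perm Ω), MeasurePreserving S μ μ → ∀ n : ℕ,
      MeasurePreserving (S ^ n : Equiv.Perm Ω) μ μ := by
    intro S hS n
    induction n with
    | zero =>
      rw [pow_zero]
      exact MeasurePreserving.id μ
    | succ n ih =>
      rw [pow_succ]
      exact ih.comp hS
  rcases n with n | n
  · rw [Int.ofNat_eq_natCast, zpow_natCast]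
    exact hpow T hT.preserving n
  · rw [zpow_negSucc, ← inv_pow]
    exact hpow _ hinv _

/-- the vector `1_A - μ(A)` in `L²` -/
noncomputable def cen [IsProbabilityMeasure μ] (A : Set Ω) (hA : MeasurableSet A) : Lp ℝ 2 μ :=
  indicatorConstLp 2 hA (measure_ne_top μ A) (1 : ℝ) -
    μ.real A • indicatorConstLp 2 MeasurableSet.univ (measure_ne_top μ Set.univ) (1 : ℝ)

theorem inner_ind [IsProbabilityMeasure μ] (A B : Set Ω) (hA : MeasurableSet A)
    (hB : MeasurableSet B) :
    ⟪indicatorConstLp 2 hA (measure_ne_top μ A) (1 : ℝ),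
      indicatorConstLp 2 hB (measure_ne_top μ B) (1 : ℝ)⟫_ℝ = μ.real (A ∩ B) := by
  rw [L2.inner_indicatorConstLp_indicatorConstLp]
  simp

theorem inner_cen [IsProbabilityMeasure μ] (A B : Set Ω) (hA : MeasurableSet A)
    (hB : MeasurableSet B) :
    ⟪indicatorConstLp 2 hB (measure_ne_top μ B) (1 : ℝ), cen (μ := μ) A hA⟫_ℝ =
      μ.real (B ∩ A) - μ.real B * μ.real A := by
  rw [cen, inner_sub_right, inner_smul_right, inner_ind, inner_ind, Set.inter_univ]
  ring

theorem inner_cen_cen [IsProbabilityMeasure μ] (A B : Set Ω) (hA : MeasurableSet A)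
    (hB : MeasurableSet B) :
    ⟪cen (μ := μ) A hA, cen (μ := μ) B hB⟫_ℝ = μ.real (A ∩ B) - μ.real A * μ.real B := by
  conv_lhs => rw [cen]
  rw [inner_sub_left, inner_smul_left, inner_cen, inner_cen, Set.univ_inter, probReal_univ]
  simp

theorem norm_cen [IsProbabilityMeasure μ] (A : Set Ω) (hA : MeasurableSet A) :
    ‖cen (μ := μ) A hA‖ ≤ 1 := by
  have h1 : ‖cen (μ := μ) A hA‖ ^ 2 ≤ 1 := by
    rw [← real_inner_self_eq_norm_sq, inner_cen_cen, Set.inter_self]
    have h2 : μ.real A ≤ 1 := measureReal_le_one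
    have h3 : 0 ≤ μ.real A := measureReal_nonneg
    nlinarith
  exact (sq_le_one_iff₀ (norm_nonneg _)).mp h1

theorem norm_ind [IsProbabilityMeasure μ] (A : Set Ω) (hA : MeasurableSet A) :
    ‖indicatorConstLp 2 hA (measure_ne_top μ A) (1 : ℝ)‖ ≤ 1 := by
  have h1 : ‖indicatorConstLp 2 hA (measure_ne_top μ A) (1 : ℝ)‖ ^ 2 ≤ 1 := by
    rw [← real_inner_self_eq_norm_sq, inner_ind, Set.inter_self]
    exact measureReal_le_one
  exact (sq_le_one_iff₀ (norm_nonneg _)).mp h1

theorem meas_pre (hT : IsAutomorphism μ T) (n : ℤ) {A : Set Ω} (hA : MeasurableSet A) :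
    MeasurableSet ((T ^ n : Equiv.Perm Ω) ⁻¹' A) :=
  (preserving_zpow hT n).measurable hA

theorem real_pre (hT : IsAutomorphism μ T) (n : ℤ) {A : Set Ω} (hA : MeasurableSet A) :
    μ.real ((T ^ n : Equiv.Perm Ω) ⁻¹' A) = μ.real A := by
  rw [Measure.real, Measure.real, (preserving_zpow hT n).measure_preimage hA.nullMeasurableSet]

/-- a gap beyond which the correlations are small -/
theorem gap (hmix : IsMixing μ T) (A : Set Ω) (hA : MeasurableSet A) (δ : ℝ) (hδ : 0 < δ) :
    ∃ L : ℕ, 1 ≤ L ∧ ∀ n : ℤ, L ≤ n.natAbs →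
      |μ.real (A ∩ (T ^ n : Equiv.Perm Ω) ⁻¹' A) - μ.real A * μ.real A| ≤ δ := by
  classical
  have h1 := hmix A A hA hA
  have h2 := (Metric.tendsto_nhds.mp h1) δ hδ
  rw [Filter.eventually_cofinite] at h2
  refine ⟨h2.toFinset.sup Int.natAbs + 1, Nat.succ_pos _ |>.trans_eq' rfl, ?_⟩
  intro n hn
  by_contra hcon
  have h3 : n ∈ h2.toFinset := by
    rw [Set.Finite.mem_toFinset]
    show ¬ dist _ _ < δ
    rw [Real.dist_eq, not_lt]
    exact (not_le.mp hcon).le
  have h4 := Finset.le_sup (f := Int.natAbs) h3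
  omega

/-- uniform bound for the number of bad times -/
theorem uniform [IsProbabilityMeasure μ] (hT : IsAutomorphism μ T) (hmix : IsMixing μ T)
    (A : Set Ω) (hA : MeasurableSet A) (ε : ℝ) (hε : 0 < ε) :
    ∃ K : ℕ, ∀ B : Set Ω, MeasurableSet B → ∀ S : Finset ℤ,
      (∀ t ∈ S, ε < |μ.real (B ∩ (T ^ t : Equiv.Perm Ω) ⁻¹' A) - μ.real B * μ.real A|) →
      S.card ≤ K := by
  classical
  obtain ⟨L, hL1, hL⟩ := gap hmix A hA (ε ^ 2 / 2) (by positivity)
  refine ⟨L * ⌈2 / ε ^ 2⌉₊, ?_⟩
  intro B hB S hS
  have hmap : ∀ t ∈ S, (t % (L : ℤ)).toNat ∈ Finset.range L := by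
    intro t _
    rw [Finset.mem_range]
    have h1 : 0 ≤ t % (L : ℤ) := Int.emod_nonneg _ (by omega)
    have h2 : t % (L : ℤ) < L := Int.emod_lt_of_pos _ (by omega)
    omega
  rw [Finset.card_eq_sum_card_fiberwise hmap]
  calc _ ≤ ∑ _r ∈ Finset.range L, ⌈2 / ε ^ 2⌉₊ := by
        refine Finset.sum_le_sum fun r _ => ?_
        set R : Finset ℤ := S.filter fun t : ℤ => (t % (L : ℤ)).toNat = r with hR
        have hbes := bessel (indicatorConstLp 2 hB (measure_ne_top μ B) (1 : ℝ)) (norm_ind B hB) R
          (fun t => cen (μ := μ) ((T ^ t : Equiv.Perm Ω) ⁻¹' A) (meas_pre hT t hA))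
          (fun t _ => norm_cen _ _) (ε ^ 2 / 2) ε (by positivity) hε.le ?_ ?_
        · have h1 : (R.card : ℝ) ≤ 2 / ε ^ 2 := by
            rw [le_div_iff₀ (by positivity)]
            linarith
          have h2 := h1.trans (Nat.le_ceil (2 / ε ^ 2))
          exact_mod_cast h2
        · intro t ht s hs hts
          rw [inner_cen_cen, real_pre hT t hA, real_pre hT s hA]
          have h1 : (T ^ t : Equiv.Perm Ω) ⁻¹' A ∩ (T ^ s : Equiv.Perm Ω) ⁻¹' A =
              (T ^ t : Equiv.Perm Ω) ⁻¹' (A ∩ (T ^ (s - t) : Equiv.Perm Ω) ⁻¹' A) := by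
            rw [Set.preimage_inter, ← Set.preimage_comp, ← Equiv.Perm.coe_mul, ← zpow_add,
              sub_add_cancel]
          rw [h1, real_pre hT t (hA.inter (meas_pre hT _ hA))]
          apply hL
          rw [hR, Finset.mem_filter] at ht hs
          have h2 : 0 ≤ t % (L : ℤ) := Int.emod_nonneg _ (by omega)
          have h3 : 0 ≤ s % (L : ℤ) := Int.emod_nonneg _ (by omega)
          have h4 : t % (L : ℤ) = s % (L : ℤ) := by
            have := ht.2.trans hs.2.symm
            omega
          have h5 : (L : ℤ) ∣ s - t := Int.ModEq.dvd h4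
          have h6 : s - t ≠ 0 := by
            intro h; exact hts (by omega)
          have h7 := Int.natAbs_dvd_natAbs.mpr h5
          rw [Int.natAbs_natCast] at h7
          exact Nat.le_of_dvd (Int.natAbs_pos.mpr h6) h7
        · intro t ht
          rw [hR, Finset.mem_filter] at ht
          rw [inner_cen, real_pre hT t hA]
          exact (hS t ht.1).le
    _ = L * ⌈2 / ε ^ 2⌉₊ := by
        rw [Finset.sum_const, Finset.card_range, smul_eq_mul]

theorem joint_meas (hT : IsAutomorphism μ T) {k : ℕ} (A : Fin k → Set Ω)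
    (hA : ∀ i, MeasurableSet (A i)) (t : Fin k → ℤ) :
    MeasurableSet (⋂ i, (T ^ t i : Equiv.Perm Ω) ⁻¹' A i) :=
  MeasurableSet.iInter fun i => meas_pre hT _ (hA i)

theorem mem_box {k : ℕ} {N : ℕ} {t : Fin k → ℤ} :
    t ∈ (Fintype.piFinset fun _ : Fin k => Finset.Icc (-(N : ℤ)) N) ↔
      ∀ i, t i ∈ Finset.Icc (-(N : ℤ)) N := Fintype.mem_piFinset

theorem card_box (k N : ℕ) :
    (Fintype.piFinset fun _ : Fin k => Finset.Icc (-(N : ℤ)) N).card = (2 * N + 1) ^ k := by
  rw [Fintype.card_piFinset_const, Int.card_Icc]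
  congr 1
  omega

/-- counting of the bad configurations -/
theorem count [IsProbabilityMeasure μ] (hT : IsAutomorphism μ T) (hmix : IsMixing μ T) (k : ℕ) :
    ∀ (A : Fin k → Set Ω), (∀ i, MeasurableSet (A i)) → ∀ ε : ℝ, 0 < ε →
      ∃ K : ℕ, ∀ N : ℕ, (bad μ T A ε N).card * (2 * N + 1) ≤ K * (2 * N + 1) ^ k := by
  classical
  induction k with
  | zero =>
    intro A _ ε hε
    refine ⟨0, fun N => ?_⟩
    have : bad μ T A ε N = ∅ := by
      rw [bad, Finset.filter_eq_empty_iff]
      intro t _
      rw [joint]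
      simp [hε.le]
    rw [this]; simp
  | succ k ih =>
    intro A hA ε hε
    obtain ⟨K₁, hK₁⟩ := ih (fun i => A i.castSucc) (fun i => hA _) (ε / 2) (by positivity)
    obtain ⟨K₂, hK₂⟩ := uniform hT hmix (A (Fin.last k)) (hA _) (ε / 2) (by positivity)
    refine ⟨K₁ + K₂, fun N => ?_⟩
    -- the second kind of bad vectors
    let C : Finset (Fin (k + 1) → ℤ) :=
      (Fintype.piFinset fun _ : Fin (k + 1) => Finset.Icc (-(N : ℤ)) N).filter fun t =>
        ε / 2 < |joint μ T A t - joint μ T (fun i => A i.castSucc) (fun i => t i.castSucc) *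
          μ.real (A (Fin.last k))|
    let D : Finset (Fin (k + 1) → ℤ) :=
      (Fintype.piFinset fun _ : Fin (k + 1) => Finset.Icc (-(N : ℤ)) N).filter fun t =>
        (fun i : Fin k => t i.castSucc) ∈ bad μ T (fun i => A i.castSucc) (ε / 2) N
    have hsub : bad μ T A ε N ⊆ C ∪ D := by
      intro t ht
      rw [bad, Finset.mem_filter] at ht
      rw [Finset.mem_union]
      by_contra hcon
      push Not at hcon
      obtain ⟨h1, h2⟩ := hcon
      have h3 : |joint μ T A t - joint μ T (fun i => A i.castSucc) (fun i => t i.castSucc) *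
          μ.real (A (Fin.last k))| ≤ ε / 2 := by
        by_contra h
        exact h1 (Finset.mem_filter.mpr ⟨ht.1, not_le.mp h⟩)
      have h4 : |joint μ T (fun i => A i.castSucc) (fun i => t i.castSucc) -
          ∏ i : Fin k, μ.real (A i.castSucc)| ≤ ε / 2 := by
        by_contra h
        apply h2
        rw [Finset.mem_filter]
        refine ⟨ht.1, ?_⟩
        rw [bad, Finset.mem_filter]
        refine ⟨?_, not_le.mp h⟩
        rw [mem_box]
        intro i
        exact mem_box.mp ht.1 _
      have h5 : joint μ T A t - ∏ i, μ.real (A i) =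
          (joint μ T A t - joint μ T (fun i => A i.castSucc) (fun i => t i.castSucc) *
            μ.real (A (Fin.last k))) +
          (joint μ T (fun i => A i.castSucc) (fun i => t i.castSucc) -
            ∏ i : Fin k, μ.real (A i.castSucc)) * μ.real (A (Fin.last k)) := by
        rw [Fin.prod_univ_castSucc]; ring
      have h6 : |(joint μ T (fun i => A i.castSucc) (fun i => t i.castSucc) -
            ∏ i : Fin k, μ.real (A i.castSucc)) * μ.real (A (Fin.last k))| ≤ ε / 2 := by
        rw [abs_mul, abs_of_nonneg measureReal_nonneg]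
        calc _ ≤ (ε / 2) * 1 := by
              apply mul_le_mul h4 measureReal_le_one measureReal_nonneg (by positivity)
          _ = ε / 2 := mul_one _
      have h7 := ht.2
      rw [h5] at h7
      have h8 := abs_add_le (joint μ T A t - joint μ T (fun i => A i.castSucc)
        (fun i => t i.castSucc) * μ.real (A (Fin.last k)))
        ((joint μ T (fun i => A i.castSucc) (fun i => t i.castSucc) -
            ∏ i : Fin k, μ.real (A i.castSucc)) * μ.real (A (Fin.last k)))
      linarith
    -- fibres
    let res : (Fin (k + 1) → ℤ) → (Fin k → ℤ) := fun t i => t i.castSucc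
    have hCcard : C.card ≤ K₂ * (2 * N + 1) ^ k := by
      have hmaps : ∀ t ∈ C, res t ∈ (Fintype.piFinset fun _ : Fin k =>
          Finset.Icc (-(N : ℤ)) N) := by
        intro t ht
        rw [mem_box]
        intro i
        exact mem_box.mp (Finset.mem_filter.mp ht).1 _
      rw [Finset.card_eq_sum_card_fiberwise hmaps]
      calc _ ≤ ∑ _s ∈ (Fintype.piFinset fun _ : Fin k => Finset.Icc (-(N : ℤ)) N), K₂ := by
            refine Finset.sum_le_sum fun s _ => ?_
            have hB := joint_meas hT (fun i : Fin k => A i.castSucc) (fun i => hA _) s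
            have h1 := hK₂ _ hB ((C.filter fun t => res t = s).image fun t => t (Fin.last k)) (by
              intro z hz
              obtain ⟨t, ht, rfl⟩ := Finset.mem_image.mp hz
              rw [Finset.mem_filter] at ht
              obtain ⟨ht1, ht2⟩ := ht
              have h2 := (Finset.mem_filter.mp ht1).2
              have h3 : joint μ T A t = μ.real ((⋂ i : Fin k,
                  (T ^ s i : Equiv.Perm Ω) ⁻¹' A i.castSucc) ∩
                  (T ^ t (Fin.last k) : Equiv.Perm Ω) ⁻¹' A (Fin.last k)) := by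
                rw [joint]
                congr 1
                ext ω
                simp only [Set.mem_iInter, Set.mem_inter_iff, Set.mem_preimage]
                rw [Fin.forall_fin_succ']
                rw [← ht2]
              have h4 : joint μ T (fun i => A i.castSucc) (fun i => t i.castSucc) =
                  μ.real (⋂ i : Fin k, (T ^ s i : Equiv.Perm Ω) ⁻¹' A i.castSucc) := by
                rw [← ht2]; rfl
              rw [h3, h4] at h2
              exact h2)
            rw [Finset.card_image_of_injOn] at h1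
            · exact h1
            · intro t ht t' ht' htt
              rw [Finset.mem_coe, Finset.mem_filter] at ht ht'
              have h5 : res t = res t' := ht.2.trans ht'.2.symm
              funext i
              refine Fin.lastCases ?_ (fun i => ?_) i
              · exact htt
              · exact congrFun h5 i
        _ = K₂ * (2 * N + 1) ^ k := by
            rw [Finset.sum_const, card_box, smul_eq_mul, mul_comm]
    have hDcard : D.card ≤ (bad μ T (fun i : Fin k => A i.castSucc) (ε / 2) N).card *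
        (2 * N + 1) := by
      have hinj : Function.Injective (fun t : Fin (k + 1) → ℤ => (res t, t (Fin.last k))) := by
        intro t t' htt
        simp only [Prod.mk.injEq] at htt
        funext i
        refine Fin.lastCases ?_ (fun i => ?_) i
        · exact htt.2
        · exact congrFun htt.1 i
      have h1 : D.image (fun t => (res t, t (Fin.last k))) ⊆
          (bad μ T (fun i : Fin k => A i.castSucc) (ε / 2) N) ×ˢ Finset.Icc (-(N : ℤ)) N := by
        intro x hx
        obtain ⟨t, ht, rfl⟩ := Finset.mem_image.mp hx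
        rw [Finset.mem_filter] at ht
        rw [Finset.mem_product]
        exact ⟨ht.2, mem_box.mp ht.1 _⟩
      have h2 := Finset.card_le_card h1
      rw [Finset.card_image_of_injective _ hinj, Finset.card_product, Int.card_Icc] at h2
      calc D.card ≤ _ := h2
        _ = _ := by congr 1; omega
    calc (bad μ T A ε N).card * (2 * N + 1) ≤ (C ∪ D).card * (2 * N + 1) :=
          Nat.mul_le_mul_right _ (Finset.card_le_card hsub)
      _ ≤ (C.card + D.card) * (2 * N + 1) := Nat.mul_le_mul_right _ (Finset.card_union_le _ _)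
      _ = C.card * (2 * N + 1) + D.card * (2 * N + 1) := by ring
      _ ≤ K₂ * (2 * N + 1) ^ k * (2 * N + 1) +
          (K₁ * (2 * N + 1) ^ k) * (2 * N + 1) := by
          apply Nat.add_le_add
          · exact Nat.mul_le_mul_right _ hCcard
          · exact Nat.mul_le_mul_right _ (hDcard.trans (hK₁ N))
      _ = (K₁ + K₂) * (2 * N + 1) ^ (k + 1) := by ring

end Vale.Agent.P102
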